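import Mathlib

namespace Vale.Agent.P066

open Finset Polynomial

variable {R : Type*} [CommRing R]

/-- piecewise weight: `0` on the diagonal, `α` if `w < z`, `β` if `w > z` -/
def wt (α β : R) (w z : ℕ) : R := if w = z then 0 else if w < z then α else β

/-- `q` to the indicator of `s < z` -/
def lw (q : R) (s z : ℕ) : R := if s < z then q else 1

noncomputable def Apol (q : R) (N : ℕ) (x : ℕ → R) (k : ℕ) : R[X] :=
  ∏ s ∈ range N, (1 + C (lw q s k * x s) * X)

noncomputable def Bpol (q : R) (N : ℕ) (x : ℕ → R) (z : ℕ) : R[X] :=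
  ∏ s ∈ range N, (if s = z then 1 else 1 + C (lw q s z * x s) * X)

noncomputable def ac (q : R) (N : ℕ) (x : ℕ → R) (i k : ℕ) : R := (Apol q N x k).coeff i

noncomputable def be (q : R) (N : ℕ) (x : ℕ → R) (i z : ℕ) : R := (Bpol q N x z).coeff i

noncomputable def La (q : R) (N : ℕ) (x : ℕ → R) (i z : ℕ) : R :=
  match i with
  | 0 => 0
  | i + 1 => x z * be q N x i z

/-- elementary symmetric polynomial as a coefficient -/
noncomputable def el (N : ℕ) (x : ℕ → R) (i : ℕ) : R := (∏ s ∈ range N, (1 + C (x s) * X)).coeff i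

/-- q-integer -/
def qi (q : R) (k : ℕ) : R := ∑ i ∈ range k, q ^ i

lemma qi_mul (q : R) (k : ℕ) : (q - 1) * qi q k = q ^ k - 1 := by
  unfold qi; rw [mul_comm]; exact geom_sum_mul q k

section basic
variable (q : R) (N : ℕ) (x : ℕ → R)

lemma Apol_eq (z : ℕ) (hx : N ≤ z → x z = 0) :
    Apol q N x z = Bpol q N x z * (1 + C (x z) * X) := by
  by_cases hz : z < N
  · unfold Apol Bpol
    rw [← Finset.mul_prod_erase (range N) _ (mem_range.2 hz),
      ← Finset.mul_prod_erase (range N) (fun s => if s = z then (1 : R[X]) else _) (mem_range.2 hz)]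
    have h1 : lw q z z = 1 := by simp [lw]
    rw [h1]
    simp only [if_true, one_mul]
    rw [mul_comm]
    congr 1
    apply Finset.prod_congr rfl
    intro s hs
    rw [if_neg (Finset.ne_of_mem_erase hs)]
  · push Not at hz
    rw [hx hz]
    unfold Apol Bpol
    simp only [map_zero, zero_mul, add_zero, mul_one]
    apply Finset.prod_congr rfl
    intro s hs
    rw [if_neg]
    have := mem_range.1 hs
    omega

lemma Apol_succ (z : ℕ) (hx : N ≤ z → x z = 0) :
    Apol q N x (z + 1) = Bpol q N x z * (1 + C (q * x z) * X) := by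
  by_cases hz : z < N
  · unfold Apol Bpol
    rw [← Finset.mul_prod_erase (range N) _ (mem_range.2 hz),
      ← Finset.mul_prod_erase (range N) (fun s => if s = z then (1 : R[X]) else _) (mem_range.2 hz)]
    have h1 : lw q z (z + 1) = q := by simp [lw]
    rw [h1]
    simp only [if_true, one_mul]
    rw [mul_comm]
    congr 1
    apply Finset.prod_congr rfl
    intro s hs
    have hne := Finset.ne_of_mem_erase hs
    rw [if_neg hne]
    have : lw q s (z + 1) = lw q s z := by
      unfold lw
      by_cases h : s < z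
      · rw [if_pos h, if_pos (by omega)]
      · rw [if_neg h, if_neg (by omega)]
    rw [this]
  · push Not at hz
    rw [hx hz]
    unfold Apol Bpol
    simp only [mul_zero, map_zero, zero_mul, add_zero, mul_one]
    apply Finset.prod_congr rfl
    intro s hs
    have := mem_range.1 hs
    rw [if_neg (by omega)]
    have : lw q s (z + 1) = lw q s z := by
      unfold lw
      rw [if_pos (by omega), if_pos (by omega)]
    rw [this]

lemma coeff_lin (p : R[X]) (c : R) (i : ℕ) :
    (p * (1 + C c * X)).coeff i = p.coeff i + (match i with | 0 => 0 | i + 1 => c * p.coeff i) := by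
  have : p * (1 + C c * X) = p + C c * p * X := by ring
  rw [this, coeff_add]
  cases i with
  | zero => simp
  | succ i => simp

lemma ac_eq (i z : ℕ) (hx : N ≤ z → x z = 0) :
    ac q N x i z = be q N x i z + La q N x i z := by
  unfold ac be
  rw [Apol_eq q N x z hx, coeff_lin]
  cases i with
  | zero => simp [La]
  | succ i => simp [La, be]

lemma ac_succ (i z : ℕ) (hx : N ≤ z → x z = 0) :
    ac q N x i (z + 1) = be q N x i z + q * La q N x i z := by
  unfold ac be
  rw [Apol_succ q N x z hx, coeff_lin]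
  cases i with
  | zero => simp [La]
  | succ i => simp [La, be, mul_assoc]

lemma ac_zero (i : ℕ) : ac q N x i 0 = el N x i := by
  unfold ac el Apol
  simp [lw]

lemma ac_N (i k : ℕ) (hk : N ≤ k) : ac q N x i k = q ^ i * el N x i := by
  unfold ac el Apol
  have : ∏ s ∈ range N, (1 + C (lw q s k * x s) * X)
      = (∏ s ∈ range N, (1 + C (x s) * X)).comp (C q * X) := by
    rw [Polynomial.prod_comp]
    apply Finset.prod_congr rfl
    intro s hs
    have := mem_range.1 hs
    simp only [lw, if_pos (show s < k by omega), add_comp, one_comp, mul_comp, C_comp, X_comp,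
      C_mul]
    ring
  rw [this, Polynomial.comp_C_mul_X_coeff]
  ring

lemma be_zero (z : ℕ) : be q N x 0 z = 1 := by
  unfold be Bpol
  rw [Polynomial.coeff_zero_prod]
  apply Finset.prod_eq_one
  intro s _
  by_cases h : s = z
  · simp [h]
  · simp [h]

lemma tel (i w : ℕ) (hx : N ≤ w → x w = 0) :
    (q - 1) * La q N x i w = ac q N x i (w + 1) - ac q N x i w := by
  rw [ac_eq q N x i w hx, ac_succ q N x i w hx]; ring

/-- sum lemma 1 -/
lemma sum1 (hx : ∀ s, N ≤ s → x s = 0) (α β : R) (i z : ℕ) (hz : z < N) :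
    (q - 1) * ∑ w ∈ range N, wt α β w z * La q N x i w
      = α * (ac q N x i z - ac q N x i 0) + β * (ac q N x i N - ac q N x i (z + 1)) := by
  rw [Finset.mul_sum]
  set a := ac q N x i with ha
  let H : ℕ → R := fun k => if k ≤ z then α * a k else β * a k + (α * a z - β * a (z + 1))
  have hH : ∀ w ∈ range N, (q - 1) * (wt α β w z * La q N x i w) = H (w + 1) - H w := by
    intro w _
    have ht := tel q N x i w (hx w)
    rw [← ha] at ht
    have h2 : (q - 1) * (wt α β w z * La q N x i w) = wt α β w z * (a (w + 1) - a w) := by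
      rw [← ht]; ring
    rw [h2]
    simp only [H, wt]
    rcases lt_trichotomy w z with h | h | h
    · rw [if_neg (by omega), if_pos h, if_pos (by omega), if_pos (by omega)]; ring
    · subst h
      rw [if_pos rfl, if_neg (by omega), if_pos le_rfl]; ring
    · rw [if_neg (by omega), if_neg (by omega), if_neg (by omega), if_neg (by omega)]; ring
  rw [Finset.sum_congr rfl hH, Finset.sum_range_sub]
  simp only [H]
  rw [if_neg (by omega), if_pos (by omega)]
  ring

/-- sum lemma 2, case `z < u` -/
lemma sum2a (hx : ∀ s, N ≤ s → x s = 0) (α β : R) (i z u : ℕ) (hzu : z < u) (hu : u < N) :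
    (q - 1) * ∑ w ∈ range N, wt q 1 w u * (wt α β w z * La q N x i w)
      = q * α * (ac q N x i z - ac q N x i 0) + q * β * (ac q N x i u - ac q N x i (z + 1))
        + β * (ac q N x i N - ac q N x i (u + 1)) := by
  rw [Finset.mul_sum]
  set a := ac q N x i with ha
  let γ : R := q * α * a z - q * β * a (z + 1)
  let H : ℕ → R := fun k => if k ≤ z then q * α * a k else if k ≤ u then q * β * a k + γ
    else β * a k + (q * β * a u + γ - β * a (u + 1))
  have hH : ∀ w ∈ range N,
      (q - 1) * (wt q 1 w u * (wt α β w z * La q N x i w)) = H (w + 1) - H w := by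
    intro w _
    have ht := tel q N x i w (hx w)
    rw [← ha] at ht
    have h2 : (q - 1) * (wt q 1 w u * (wt α β w z * La q N x i w))
        = wt q 1 w u * wt α β w z * (a (w + 1) - a w) := by
      rw [← ht]; ring
    rw [h2]
    simp only [H, wt]
    rcases lt_trichotomy w z with h | h | h
    · rw [if_neg (by omega), if_pos (by omega), if_neg (by omega), if_pos (by omega),
        if_pos (by omega), if_pos (by omega)]; ring
    · subst h
      rw [if_neg (by omega), if_pos (by omega), if_pos rfl, if_neg (by omega), if_pos (by omega),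
        if_pos le_rfl]
      simp only [γ]; ring
    · rcases lt_trichotomy w u with h' | h' | h'
      · rw [if_neg (by omega), if_pos (by omega), if_neg (by omega), if_neg (by omega),
          if_neg (by omega), if_pos (by omega), if_neg (by omega), if_pos (by omega)]; ring
      · subst h'
        rw [if_pos rfl, if_neg (by omega), if_neg (by omega), if_neg (by omega), if_neg (by omega),
          if_neg (by omega), if_pos le_rfl]; ring
      · rw [if_neg (by omega), if_neg (by omega), if_neg (by omega), if_neg (by omega),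
          if_neg (by omega), if_neg (by omega), if_neg (by omega), if_neg (by omega)]; ring
  rw [Finset.sum_congr rfl hH, Finset.sum_range_sub]
  simp only [H, γ]
  rw [if_neg (by omega), if_neg (by omega), if_pos (by omega)]
  ring

/-- sum lemma 2, case `u < z` -/
lemma sum2b (hx : ∀ s, N ≤ s → x s = 0) (α β : R) (i z u : ℕ) (hzu : u < z) (hz : z < N) :
    (q - 1) * ∑ w ∈ range N, wt q 1 w u * (wt α β w z * La q N x i w)
      = q * α * (ac q N x i u - ac q N x i 0) + α * (ac q N x i z - ac q N x i (u + 1))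
        + β * (ac q N x i N - ac q N x i (z + 1)) := by
  rw [Finset.mul_sum]
  set a := ac q N x i with ha
  let γ : R := q * α * a u - α * a (u + 1)
  let H : ℕ → R := fun k => if k ≤ u then q * α * a k else if k ≤ z then α * a k + γ
    else β * a k + (α * a z + γ - β * a (z + 1))
  have hH : ∀ w ∈ range N,
      (q - 1) * (wt q 1 w u * (wt α β w z * La q N x i w)) = H (w + 1) - H w := by
    intro w _
    have ht := tel q N x i w (hx w)
    rw [← ha] at ht
    have h2 : (q - 1) * (wt q 1 w u * (wt α β w z * La q N x i w))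
        = wt q 1 w u * wt α β w z * (a (w + 1) - a w) := by
      rw [← ht]; ring
    rw [h2]
    simp only [H, wt]
    rcases lt_trichotomy w u with h | h | h
    · rw [if_neg (by omega), if_pos (by omega), if_neg (by omega), if_pos (by omega),
        if_pos (by omega), if_pos (by omega)]; ring
    · subst h
      rw [if_pos rfl, if_neg (by omega), if_pos (by omega), if_neg (by omega), if_pos (by omega),
        if_pos le_rfl]
      simp only [γ]; ring
    · rcases lt_trichotomy w z with h' | h' | h'
      · rw [if_neg (by omega), if_neg (by omega), if_neg (by omega), if_pos (by omega),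
          if_neg (by omega), if_pos (by omega), if_neg (by omega), if_pos (by omega)]; ring
      · subst h'
        rw [if_neg (by omega), if_neg (by omega), if_pos rfl, if_neg (by omega), if_neg (by omega),
          if_neg (by omega), if_pos le_rfl]; ring
      · rw [if_neg (by omega), if_neg (by omega), if_neg (by omega), if_neg (by omega),
          if_neg (by omega), if_neg (by omega), if_neg (by omega), if_neg (by omega)]; ring
  rw [Finset.sum_congr rfl hH, Finset.sum_range_sub]
  simp only [H, γ]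
  rw [if_neg (by omega), if_neg (by omega), if_pos (by omega)]
  ring


/-! ### operators -/

/-- attach a new letter adjacent to all open vertices (one open vertex) -/
def opT (f : ℕ → R) (z u : ℕ) : R := wt q 1 z u * x u * f z

/-- forget the older open vertex -/
def opP (F : ℕ → ℕ → R) (z : ℕ) : R := ∑ w ∈ range N, F w z

/-- attach a new letter to both open vertices, forget the oldest -/
def opR (F : ℕ → ℕ → R) (z u : ℕ) : R := wt q 1 z u * x u * ∑ w ∈ range N, wt q 1 w u * F w z

/-- the alphabet obtained by removing `z` and twisting -/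
def yz (z s : ℕ) : R := if s = z then 0 else lw q s z * x s

/-- `Kf D w z` is the function `K_(D+2)` -/
noncomputable def Kf (D w z : ℕ) : R := wt q 1 w z * x w * x z * be q N (yz q x z) D w

noncomputable def Gf (K D w z : ℕ) : R :=
  (∑ j ∈ range ((K + 1) / 2), wt (q ^ (K - j)) (q ^ j) w z * La q N x (D - 1 - j) w
      * La q N x (j + 1) z)
    + ∑ i ∈ range (K / 2), wt (q ^ (i + 1)) (q ^ (K - 1 - i)) w z * La q N x (i + 1) w
      * La q N x (D - 1 - i) z

lemma La_one (z : ℕ) : La q N x 1 z = x z := by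
  simp [La, be_zero]

lemma La_out (hx : ∀ s, N ≤ s → x s = 0) (i z : ℕ) (hz : N ≤ z) : La q N x i z = 0 := by
  cases i with
  | zero => rfl
  | succ i => simp [La, hx z hz]

lemma opT_one : opT q x (La q N x 1) = Kf q N x 0 := by
  funext z u
  simp only [opT, Kf, La_one, be_zero]
  ring

lemma opT_succ (b : ℕ) : opT q x (La q N x b) = Gf q N x 1 (b + 1) := by
  funext z u
  simp only [opT, Gf]
  simp only [show (1 + 1) / 2 = 1 by norm_num, show 1 / 2 = 0 by norm_num, Finset.sum_range_one,
    Finset.sum_range_zero, La_one, Nat.sub_zero, pow_one, pow_zero, add_zero,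
    Nat.add_sub_cancel, zero_add]
  ring

/-- the common cancellation -/
lemma core (K D z : ℕ) (hK : 1 ≤ K) (hD : K + 2 ≤ D) (hx : N ≤ z → x z = 0) :
    (∑ j ∈ range ((K + 1) / 2), (q ^ (K - j) * ac q N x (D - 1 - j) z
        - q ^ j * ac q N x (D - 1 - j) (z + 1)) * La q N x (j + 1) z)
      + ∑ i ∈ range (K / 2), (q ^ (i + 1) * ac q N x (i + 1) z
        - q ^ (K - 1 - i) * ac q N x (i + 1) (z + 1)) * La q N x (D - 1 - i) z
      = (q ^ K - 1) * La q N x D z := by
  let m : ℕ → R := fun s => x z * be q N x s z * be q N x (D - 1 - s) z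
  let g : ℕ → R := fun s => (q ^ (K - s) - q ^ s) * m s
  let g2 : ℕ → R := fun j => (q ^ (K - j) - q ^ (j + 1)) * La q N x (j + 1) z
    * La q N x (D - 1 - j) z
  have h1 : ∀ j ∈ range ((K + 1) / 2), (q ^ (K - j) * ac q N x (D - 1 - j) z
        - q ^ j * ac q N x (D - 1 - j) (z + 1)) * La q N x (j + 1) z = g j + g2 j := by
    intro j hj
    rw [ac_eq q N x _ z hx, ac_succ q N x _ z hx]
    simp only [g, g2, m]
    have : La q N x (j + 1) z = x z * be q N x j z := rfl
    rw [this]
    ring
  have h2 : ∀ i ∈ range (K / 2), (q ^ (i + 1) * ac q N x (i + 1) z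
        - q ^ (K - 1 - i) * ac q N x (i + 1) (z + 1)) * La q N x (D - 1 - i) z
        = - (g (i + 1) + g2 i) := by
    intro i hi
    have hi' := mem_range.1 hi
    have hi2 : i < K := by omega
    rw [ac_eq q N x _ z hx, ac_succ q N x _ z hx]
    simp only [g, g2, m]
    obtain ⟨r, hr⟩ : ∃ r, D - 1 - i = r + 1 := ⟨D - 1 - i - 1, by omega⟩
    have h3 : D - 1 - (i + 1) = r := by omega
    have h4 : K - (i + 1) = K - 1 - i := by omega
    have h5 : K - i = (K - 1 - i) + 1 := by omega
    rw [hr, h3, h4, h5]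
    have : La q N x (r + 1) z = x z * be q N x r z := rfl
    rw [this]
    ring
  rw [Finset.sum_congr rfl h1, Finset.sum_congr rfl h2, Finset.sum_neg_distrib,
    Finset.sum_add_distrib, Finset.sum_add_distrib]
  have h6 : ∑ i ∈ range (K / 2), g (i + 1) = ∑ i ∈ range (K / 2 + 1), g i - g 0 := by
    rw [Finset.sum_range_succ']; ring
  have hg0 : g 0 = (q ^ K - 1) * La q N x D z := by
    simp only [g, m, be_zero]
    obtain ⟨r, hr⟩ : ∃ r, D = r + 1 := ⟨D - 1, by omega⟩
    subst hr
    simp only [Nat.sub_zero, pow_zero, Nat.add_sub_cancel, mul_one]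
    rfl
  rw [h6, ← hg0]
  rcases Nat.even_or_odd' K with ⟨p, hp | hp⟩
  · have e1 : (K + 1) / 2 = p := by omega
    have e2 : K / 2 = p := by omega
    rw [e1, e2, Finset.sum_range_succ]
    have : g p = 0 := by
      simp only [g]
      rw [show K - p = p by omega]; ring
    rw [this]; ring
  · have e1 : (K + 1) / 2 = p + 1 := by omega
    have e2 : K / 2 = p := by omega
    rw [e1, e2, Finset.sum_range_succ g2]
    have : g2 p = 0 := by
      simp only [g2]
      rw [show K - p = p + 1 by omega]; ring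
    rw [this]; ring

/-- the value of `P` on `Gf` multiplied by `q - 1` -/
lemma P_G_aux (hx : ∀ s, N ≤ s → x s = 0) (K D z : ℕ) (hK : 1 ≤ K) (hD : K + 2 ≤ D) :
    (q - 1) * opP N (Gf q N x K D) z
      = (q - 1) * (qi q K * La q N x D z
        + (∑ j ∈ range ((K + 1) / 2), q ^ (K - j) * qi q (D - 1 - K + j) * el N x (D - 1 - j)
            * La q N x (j + 1) z)
        + ∑ i ∈ range (K / 2), q ^ (i + 1) * qi q (K - 1 - i) * el N x (i + 1)
            * La q N x (D - 1 - i) z) := by
  by_cases hz : z < N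
  swap
  · have hz' : N ≤ z := by omega
    simp [opP, Gf, La_out q N x hx _ z hz']
  have hc := core q N x K D z hK hD (hx z)
  have e1 : ∀ j, (q - 1) * (q ^ (K - j) * qi q (D - 1 - K + j) * el N x (D - 1 - j)
            * La q N x (j + 1) z)
      = q ^ (K - j) * (q ^ (D - 1 - K + j) - 1) * el N x (D - 1 - j) * La q N x (j + 1) z := by
    intro j; rw [← qi_mul]; ring
  have e2 : ∀ i, (q - 1) * (q ^ (i + 1) * qi q (K - 1 - i) * el N x (i + 1)
            * La q N x (D - 1 - i) z)
      = q ^ (i + 1) * (q ^ (K - 1 - i) - 1) * el N x (i + 1) * La q N x (D - 1 - i) z := by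
    intro i; rw [← qi_mul]; ring
  have e3 : (q - 1) * (qi q K * La q N x D z) = (q ^ K - 1) * La q N x D z := by
    rw [← qi_mul]; ring
  rw [mul_add, mul_add, e3, Finset.mul_sum, Finset.mul_sum]
  simp only [e1, e2]
  have l1 : opP N (Gf q N x K D) z
      = (∑ j ∈ range ((K + 1) / 2), (∑ w ∈ range N, wt (q ^ (K - j)) (q ^ j) w z
          * La q N x (D - 1 - j) w) * La q N x (j + 1) z)
        + ∑ i ∈ range (K / 2), (∑ w ∈ range N, wt (q ^ (i + 1)) (q ^ (K - 1 - i)) w z
          * La q N x (i + 1) w) * La q N x (D - 1 - i) z := by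
    unfold opP Gf
    rw [Finset.sum_add_distrib, Finset.sum_comm, Finset.sum_comm (s := range N) (t := range (K / 2))]
    simp only [Finset.sum_mul]
  rw [l1, mul_add, Finset.mul_sum, Finset.mul_sum, ← hc]
  have t1 : ∀ j ∈ range ((K + 1) / 2), (q - 1) * ((∑ w ∈ range N, wt (q ^ (K - j)) (q ^ j) w z
          * La q N x (D - 1 - j) w) * La q N x (j + 1) z)
      = (q ^ (K - j) * ac q N x (D - 1 - j) z
        - q ^ j * ac q N x (D - 1 - j) (z + 1)) * La q N x (j + 1) z
        + q ^ (K - j) * (q ^ (D - 1 - K + j) - 1) * el N x (D - 1 - j) * La q N x (j + 1) z := by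
    intro j hj
    have hj' := mem_range.1 hj
    have h1 := sum1 q N x hx (q ^ (K - j)) (q ^ j) (D - 1 - j) z hz
    rw [← mul_assoc, h1, ac_zero, ac_N q N x _ N le_rfl]
    have h2 : q ^ (K - j) * (q ^ (D - 1 - K + j) - 1) = q ^ j * q ^ (D - 1 - j) - q ^ (K - j) := by
      rw [mul_sub, ← pow_add, ← pow_add, mul_one]
      congr 2; omega
    rw [h2]; ring
  have t2 : ∀ i ∈ range (K / 2), (q - 1) * ((∑ w ∈ range N, wt (q ^ (i + 1)) (q ^ (K - 1 - i)) w z
          * La q N x (i + 1) w) * La q N x (D - 1 - i) z)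
      = (q ^ (i + 1) * ac q N x (i + 1) z
        - q ^ (K - 1 - i) * ac q N x (i + 1) (z + 1)) * La q N x (D - 1 - i) z
        + q ^ (i + 1) * (q ^ (K - 1 - i) - 1) * el N x (i + 1) * La q N x (D - 1 - i) z := by
    intro i hi
    have hi' := mem_range.1 hi
    have h1 := sum1 q N x hx (q ^ (i + 1)) (q ^ (K - 1 - i)) (i + 1) z hz
    rw [← mul_assoc, h1, ac_zero, ac_N q N x _ N le_rfl]
    ring
  rw [Finset.sum_congr rfl t1, Finset.sum_congr rfl t2, Finset.sum_add_distrib,
    Finset.sum_add_distrib]
  ring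

/-- the correction term for `R` on `Gf` -/
noncomputable def corr (K D z : ℕ) : R :=
  q * qi q (K - 1) * La q N x D z
    + (∑ j ∈ range ((K + 1) / 2), q ^ (K + 1 - j) * qi q (D - 2 - K + j) * el N x (D - 1 - j)
            * La q N x (j + 1) z)
    + ∑ i ∈ range (K / 2), q ^ (i + 2) * qi q (K - 2 - i) * el N x (i + 1)
            * La q N x (D - 1 - i) z

lemma corr_mul (K D z : ℕ) (hK : 1 ≤ K) (hD : K + 2 ≤ D) :
    (q - 1) * corr q N x K D z = (q ^ K - q) * La q N x D z
      + (∑ j ∈ range ((K + 1) / 2), (q ^ (D - 1) - q ^ (K + 1 - j)) * el N x (D - 1 - j)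
            * La q N x (j + 1) z)
      + ∑ i ∈ range (K / 2), (q ^ K - q ^ (i + 2)) * el N x (i + 1) * La q N x (D - 1 - i) z := by
  unfold corr
  rw [mul_add, mul_add, Finset.mul_sum, Finset.mul_sum]
  congr 1
  · congr 1
    · have : (q - 1) * (q * qi q (K - 1) * La q N x D z) = q * ((q - 1) * qi q (K - 1))
        * La q N x D z := by ring
      rw [this, qi_mul]
      obtain ⟨k, hk⟩ : ∃ k, K = k + 1 := ⟨K - 1, by omega⟩
      subst hk
      simp only [Nat.add_sub_cancel]
      ring
    · apply Finset.sum_congr rfl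
      intro j hj
      have hj' := mem_range.1 hj
      have : (q - 1) * (q ^ (K + 1 - j) * qi q (D - 2 - K + j) * el N x (D - 1 - j)
            * La q N x (j + 1) z) = (q ^ (K + 1 - j) * ((q - 1) * qi q (D - 2 - K + j)))
              * el N x (D - 1 - j) * La q N x (j + 1) z := by ring
      rw [this, qi_mul, mul_sub, ← pow_add, mul_one]
      congr 4; omega
  · apply Finset.sum_congr rfl
    intro i hi
    have hi' := mem_range.1 hi
    have : (q - 1) * (q ^ (i + 2) * qi q (K - 2 - i) * el N x (i + 1)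
            * La q N x (D - 1 - i) z) = (q ^ (i + 2) * ((q - 1) * qi q (K - 2 - i)))
              * el N x (i + 1) * La q N x (D - 1 - i) z := by ring
    rw [this, qi_mul, mul_sub, ← pow_add, mul_one]
    congr 4; omega


lemma R_G_aux (hx : ∀ s, N ≤ s → x s = 0) (K D z u : ℕ) (hK : 1 ≤ K) (hD : K + 2 ≤ D) :
    (q - 1) * opR q N x (Gf q N x K D) z u
      = (q - 1) * (Gf q N x (K + 1) (D + 1) z u + opT q x (corr q N x K D) z u) := by
  by_cases hz : z < N
  swap
  · have hz' : N ≤ z := by omega
    simp [opR, opT, Gf, corr, La_out q N x hx _ z hz']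
  by_cases hu : u < N
  swap
  · have hu' : N ≤ u := by omega
    simp [opR, opT, Gf, hx u hu', La_out q N x hx _ u hu']
  have hc := core q N x K D z hK hD (hx z)
  have hcm := corr_mul q N x K D z hK hD
  -- expand the left side
  have l1 : opR q N x (Gf q N x K D) z u
      = wt q 1 z u * x u * ((∑ j ∈ range ((K + 1) / 2), (∑ w ∈ range N, wt q 1 w u *
          (wt (q ^ (K - j)) (q ^ j) w z * La q N x (D - 1 - j) w)) * La q N x (j + 1) z)
        + ∑ i ∈ range (K / 2), (∑ w ∈ range N, wt q 1 w u *
          (wt (q ^ (i + 1)) (q ^ (K - 1 - i)) w z * La q N x (i + 1) w))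
            * La q N x (D - 1 - i) z) := by
    unfold opR Gf
    congr 1
    simp only [mul_add, Finset.sum_add_distrib, Finset.mul_sum, Finset.sum_mul]
    rw [Finset.sum_comm, Finset.sum_comm (s := range N) (t := range (K / 2))]
    simp only [mul_assoc]
  have l2 : (q - 1) * opT q x (corr q N x K D) z u
      = wt q 1 z u * x u * ((q ^ K - q) * La q N x D z
      + (∑ j ∈ range ((K + 1) / 2), (q ^ (D - 1) - q ^ (K + 1 - j)) * el N x (D - 1 - j)
            * La q N x (j + 1) z)
      + ∑ i ∈ range (K / 2), (q ^ K - q ^ (i + 2)) * el N x (i + 1)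
            * La q N x (D - 1 - i) z) := by
    rw [← hcm]; unfold opT; ring
  -- expand `G (K+1) (D+1)`
  have l3 : Gf q N x (K + 1) (D + 1) z u
      = wt (q ^ (K + 1)) 1 z u * La q N x D z * x u
        + (∑ i ∈ range (K / 2), wt (q ^ (K - i)) (q ^ (i + 1)) z u * La q N x (D - 1 - i) z
            * La q N x (i + 2) u)
        + ∑ j ∈ range ((K + 1) / 2), wt (q ^ (j + 1)) (q ^ (K - j)) z u * La q N x (j + 1) z
            * La q N x (D - j) u := by
    unfold Gf
    congr 1
    rw [show (K + 1 + 1) / 2 = K / 2 + 1 by omega, Finset.sum_range_succ', add_comm]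
    congr 1
    · simp [La_one]
    · apply Finset.sum_congr rfl
      intro i hi
      have hi' := mem_range.1 hi
      rw [show K + 1 - (i + 1) = K - i by omega, show D + 1 - 1 - (i + 1) = D - 1 - i by omega]
  have hla : ∀ n, x u * be q N x n u = La q N x (n + 1) u := fun n => rfl
  rw [l1, mul_add (q - 1) (Gf q N x (K + 1) (D + 1) z u), l2, l3]
  rcases lt_trichotomy z u with h | h | h
  · -- z < u
    have w1 : ∀ a b : R, wt a b z u = a := by
      intro a b; unfold wt; rw [if_neg (by omega), if_pos h]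
    simp only [w1]
    have t1 : ∀ j ∈ range ((K + 1) / 2), (q - 1) * ((∑ w ∈ range N, wt q 1 w u *
          (wt (q ^ (K - j)) (q ^ j) w z * La q N x (D - 1 - j) w)) * La q N x (j + 1) z)
        = q * ((q ^ (K - j) * ac q N x (D - 1 - j) z
        - q ^ j * ac q N x (D - 1 - j) (z + 1)) * La q N x (j + 1) z)
        + (q ^ (D - 1) - q ^ (K + 1 - j)) * el N x (D - 1 - j) * La q N x (j + 1) z
        + (q - 1) * (q ^ j * La q N x (j + 1) z * be q N x (D - 1 - j) u) := by
      intro j hj
      have hj' := mem_range.1 hj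
      have h1 := sum2a q N x hx (q ^ (K - j)) (q ^ j) (D - 1 - j) z u h hu
      rw [← mul_assoc, h1, ac_zero, ac_N q N x _ N le_rfl, ac_eq q N x _ u (hx u),
        ac_succ q N x _ u (hx u)]
      have h2 : q ^ (D - 1) = q ^ j * q ^ (D - 1 - j) := by
        rw [← pow_add]; congr 1; omega
      have h3 : q ^ (K + 1 - j) = q * q ^ (K - j) := by
        rw [← pow_succ']; congr 1; omega
      rw [h2, h3]; ring
    have t2 : ∀ i ∈ range (K / 2), (q - 1) * ((∑ w ∈ range N, wt q 1 w u *
          (wt (q ^ (i + 1)) (q ^ (K - 1 - i)) w z * La q N x (i + 1) w))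
            * La q N x (D - 1 - i) z)
        = q * ((q ^ (i + 1) * ac q N x (i + 1) z
        - q ^ (K - 1 - i) * ac q N x (i + 1) (z + 1)) * La q N x (D - 1 - i) z)
        + (q ^ K - q ^ (i + 2)) * el N x (i + 1) * La q N x (D - 1 - i) z
        + (q - 1) * (q ^ (K - 1 - i) * La q N x (D - 1 - i) z * be q N x (i + 1) u) := by
      intro i hi
      have hi' := mem_range.1 hi
      have h1 := sum2a q N x hx (q ^ (i + 1)) (q ^ (K - 1 - i)) (i + 1) z u h hu
      rw [← mul_assoc, h1, ac_zero, ac_N q N x _ N le_rfl, ac_eq q N x _ u (hx u),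
        ac_succ q N x _ u (hx u)]
      have h2 : q ^ K = q ^ (i + 1) * q ^ (K - 1 - i) := by
        rw [← pow_add]; congr 1; omega
      rw [h2]; ring
    have t3 : (q - 1) * (q * x u * ((∑ j ∈ range ((K + 1) / 2), (∑ w ∈ range N, wt q 1 w u *
          (wt (q ^ (K - j)) (q ^ j) w z * La q N x (D - 1 - j) w)) * La q N x (j + 1) z)
        + ∑ i ∈ range (K / 2), (∑ w ∈ range N, wt q 1 w u *
          (wt (q ^ (i + 1)) (q ^ (K - 1 - i)) w z * La q N x (i + 1) w))
            * La q N x (D - 1 - i) z))
        = q * x u * ((∑ j ∈ range ((K + 1) / 2), (q - 1) * ((∑ w ∈ range N, wt q 1 w u *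
          (wt (q ^ (K - j)) (q ^ j) w z * La q N x (D - 1 - j) w)) * La q N x (j + 1) z))
        + ∑ i ∈ range (K / 2), (q - 1) * ((∑ w ∈ range N, wt q 1 w u *
          (wt (q ^ (i + 1)) (q ^ (K - 1 - i)) w z * La q N x (i + 1) w))
            * La q N x (D - 1 - i) z)) := by
      rw [← Finset.mul_sum, ← Finset.mul_sum]; ring
    rw [t3, Finset.sum_congr rfl t1, Finset.sum_congr rfl t2]
    simp only [Finset.sum_add_distrib, ← Finset.mul_sum]
    have s1 : (∑ i ∈ range (K / 2), q ^ (K - i) * La q N x (D - 1 - i) z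
            * La q N x (i + 2) u)
        = q * x u * ∑ i ∈ range (K / 2), q ^ (K - 1 - i) * La q N x (D - 1 - i) z
            * be q N x (i + 1) u := by
      rw [Finset.mul_sum]
      apply Finset.sum_congr rfl
      intro i hi
      have hi' := mem_range.1 hi
      rw [← hla, show q ^ (K - i) = q * q ^ (K - 1 - i) by rw [← pow_succ']; congr 1; omega]
      ring
    have s2 : (∑ j ∈ range ((K + 1) / 2), q ^ (j + 1) * La q N x (j + 1) z
            * La q N x (D - j) u)
        = q * x u * ∑ j ∈ range ((K + 1) / 2), q ^ j * La q N x (j + 1) z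
            * be q N x (D - 1 - j) u := by
      rw [Finset.mul_sum]
      apply Finset.sum_congr rfl
      intro j hj
      have hj' := mem_range.1 hj
      rw [show D - j = (D - 1 - j) + 1 by omega, ← hla]
      ring
    rw [s1, s2]
    have hc' : q * (∑ j ∈ range ((K + 1) / 2), (q ^ (K - j) * ac q N x (D - 1 - j) z
        - q ^ j * ac q N x (D - 1 - j) (z + 1)) * La q N x (j + 1) z)
      = q * (q ^ K - 1) * La q N x D z - q * ∑ i ∈ range (K / 2), (q ^ (i + 1) * ac q N x (i + 1) z
        - q ^ (K - 1 - i) * ac q N x (i + 1) (z + 1)) * La q N x (D - 1 - i) z := by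
      rw [mul_assoc, ← hc]; ring
    rw [hc']
    ring
  · subst h
    simp [wt]
  · -- u < z
    have w1 : ∀ a b : R, wt a b z u = b := by
      intro a b; unfold wt; rw [if_neg (by omega), if_neg (by omega)]
    simp only [w1]
    have t1 : ∀ j ∈ range ((K + 1) / 2), (q - 1) * ((∑ w ∈ range N, wt q 1 w u *
          (wt (q ^ (K - j)) (q ^ j) w z * La q N x (D - 1 - j) w)) * La q N x (j + 1) z)
        = ((q ^ (K - j) * ac q N x (D - 1 - j) z
        - q ^ j * ac q N x (D - 1 - j) (z + 1)) * La q N x (j + 1) z)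
        + (q ^ (D - 1) - q ^ (K + 1 - j)) * el N x (D - 1 - j) * La q N x (j + 1) z
        + (q - 1) * (q ^ (K - j) * La q N x (j + 1) z * be q N x (D - 1 - j) u) := by
      intro j hj
      have hj' := mem_range.1 hj
      have h1 := sum2b q N x hx (q ^ (K - j)) (q ^ j) (D - 1 - j) z u h hz
      rw [← mul_assoc, h1, ac_zero, ac_N q N x _ N le_rfl, ac_eq q N x _ u (hx u),
        ac_succ q N x _ u (hx u)]
      have h2 : q ^ (D - 1) = q ^ j * q ^ (D - 1 - j) := by
        rw [← pow_add]; congr 1; omega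
      have h3 : q ^ (K + 1 - j) = q * q ^ (K - j) := by
        rw [← pow_succ']; congr 1; omega
      rw [h2, h3]; ring
    have t2 : ∀ i ∈ range (K / 2), (q - 1) * ((∑ w ∈ range N, wt q 1 w u *
          (wt (q ^ (i + 1)) (q ^ (K - 1 - i)) w z * La q N x (i + 1) w))
            * La q N x (D - 1 - i) z)
        = ((q ^ (i + 1) * ac q N x (i + 1) z
        - q ^ (K - 1 - i) * ac q N x (i + 1) (z + 1)) * La q N x (D - 1 - i) z)
        + (q ^ K - q ^ (i + 2)) * el N x (i + 1) * La q N x (D - 1 - i) z
        + (q - 1) * (q ^ (i + 1) * La q N x (D - 1 - i) z * be q N x (i + 1) u) := by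
      intro i hi
      have hi' := mem_range.1 hi
      have h1 := sum2b q N x hx (q ^ (i + 1)) (q ^ (K - 1 - i)) (i + 1) z u h hz
      rw [← mul_assoc, h1, ac_zero, ac_N q N x _ N le_rfl, ac_eq q N x _ u (hx u),
        ac_succ q N x _ u (hx u)]
      have h2 : q ^ K = q ^ (i + 1) * q ^ (K - 1 - i) := by
        rw [← pow_add]; congr 1; omega
      rw [h2]; ring
    have t3 : (q - 1) * (1 * x u * ((∑ j ∈ range ((K + 1) / 2), (∑ w ∈ range N, wt q 1 w u *
          (wt (q ^ (K - j)) (q ^ j) w z * La q N x (D - 1 - j) w)) * La q N x (j + 1) z)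
        + ∑ i ∈ range (K / 2), (∑ w ∈ range N, wt q 1 w u *
          (wt (q ^ (i + 1)) (q ^ (K - 1 - i)) w z * La q N x (i + 1) w))
            * La q N x (D - 1 - i) z))
        = x u * ((∑ j ∈ range ((K + 1) / 2), (q - 1) * ((∑ w ∈ range N, wt q 1 w u *
          (wt (q ^ (K - j)) (q ^ j) w z * La q N x (D - 1 - j) w)) * La q N x (j + 1) z))
        + ∑ i ∈ range (K / 2), (q - 1) * ((∑ w ∈ range N, wt q 1 w u *
          (wt (q ^ (i + 1)) (q ^ (K - 1 - i)) w z * La q N x (i + 1) w))
            * La q N x (D - 1 - i) z)) := by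
      rw [← Finset.mul_sum, ← Finset.mul_sum]; ring
    rw [t3, Finset.sum_congr rfl t1, Finset.sum_congr rfl t2]
    simp only [Finset.sum_add_distrib, ← Finset.mul_sum]
    have s1 : (∑ i ∈ range (K / 2), q ^ (i + 1) * La q N x (D - 1 - i) z
            * La q N x (i + 2) u)
        = x u * ∑ i ∈ range (K / 2), q ^ (i + 1) * La q N x (D - 1 - i) z
            * be q N x (i + 1) u := by
      rw [Finset.mul_sum]
      apply Finset.sum_congr rfl
      intro i hi
      rw [← hla]
      ring
    have s2 : (∑ j ∈ range ((K + 1) / 2), q ^ (K - j) * La q N x (j + 1) z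
            * La q N x (D - j) u)
        = x u * ∑ j ∈ range ((K + 1) / 2), q ^ (K - j) * La q N x (j + 1) z
            * be q N x (D - 1 - j) u := by
      rw [Finset.mul_sum]
      apply Finset.sum_congr rfl
      intro j hj
      have hj' := mem_range.1 hj
      rw [show D - j = (D - 1 - j) + 1 by omega, ← hla]
      ring
    rw [s1, s2]
    have hc' : (∑ j ∈ range ((K + 1) / 2), (q ^ (K - j) * ac q N x (D - 1 - j) z
        - q ^ j * ac q N x (D - 1 - j) (z + 1)) * La q N x (j + 1) z)
      = (q ^ K - 1) * La q N x D z - ∑ i ∈ range (K / 2), (q ^ (i + 1) * ac q N x (i + 1) z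
        - q ^ (K - 1 - i) * ac q N x (i + 1) (z + 1)) * La q N x (D - 1 - i) z := by
      rw [← hc]; ring
    rw [hc']
    ring


/-- `ρ Λ_b = [b] e_b` multiplied by `q - 1` -/
lemma rho_aux (hx : ∀ s, N ≤ s → x s = 0) (b : ℕ) :
    (q - 1) * ∑ z ∈ range N, La q N x b z = (q - 1) * (qi q b * el N x b) := by
  rw [Finset.mul_sum, Finset.sum_congr rfl (fun w _ => tel q N x b w (hx w)),
    Finset.sum_range_sub, ac_zero, ac_N q N x _ N le_rfl, ← mul_assoc, qi_mul]
  ring

lemma yz_out (hx : ∀ s, N ≤ s → x s = 0) (z s : ℕ) (hs : N ≤ s) : yz q x z s = 0 := by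
  unfold yz
  split_ifs
  · rfl
  · rw [hx s hs, mul_zero]

/-- the sum with weights of `Λ_i` skipping one index -/
lemma sum3 (hx : ∀ s, N ≤ s → x s = 0) (i u : ℕ) (hu : u < N) :
    (q - 1) * ∑ w ∈ range N, wt q 1 w u * La q N x i w
      = (q ^ i - q) * el N x i + (q - 1) * be q N x i u := by
  rw [sum1 q N x hx q 1 i u hu, ac_zero, ac_N q N x _ N le_rfl, ac_eq q N x _ u (hx u),
    ac_succ q N x _ u (hx u)]
  ring

lemma be_yz_symm (i z u : ℕ) : be q N (yz q x z) i u = be q N (yz q x u) i z := by
  unfold be Bpol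
  congr 1
  apply Finset.prod_congr rfl
  intro s _
  unfold yz
  by_cases h1 : s = u
  · subst h1
    simp
  · by_cases h2 : s = z
    · subst h2
      simp
    · rw [if_neg h1, if_neg h1, if_neg h2, if_neg h2]
      congr 3
      ring

lemma el_yz (i z : ℕ) (hz : z < N) : el N (yz q x z) i = be q N x i z := by
  unfold be Bpol el
  congr 1
  apply Finset.prod_congr rfl
  intro s _
  unfold yz
  by_cases h1 : s = z
  · subst h1
    simp
  · rw [if_neg h1, if_neg h1]

lemma Kf_eq (D w z : ℕ) : Kf q N x D w z = x z * La q N (yz q x z) (D + 1) w := by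
  unfold Kf
  simp only [La, yz, wt, lw]
  by_cases h : w = z
  · simp [h]
  · rw [if_neg h, if_neg h]
    by_cases h' : w < z
    · rw [if_pos h']; ring
    · rw [if_neg h']; ring

lemma P_K_aux (hx : ∀ s, N ≤ s → x s = 0) (D z : ℕ) :
    (q - 1) * opP N (Kf q N x D) z = (q - 1) * (qi q (D + 1) * La q N x (D + 2) z) := by
  unfold opP
  by_cases hz : z < N
  swap
  · have hz' : N ≤ z := by omega
    simp [Kf, hx z hz', La_out q N x hx _ z hz']
  simp only [Kf_eq]
  rw [← Finset.mul_sum, mul_left_comm, rho_aux q N (yz q x z) (yz_out q N x hx z), el_yz q N x _ z hz]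
  simp only [La]
  ring

lemma R_K_aux (hx : ∀ s, N ≤ s → x s = 0) (D z u : ℕ) :
    (q - 1) * opR q N x (Kf q N x D) z u
      = (q - 1) * (Kf q N x (D + 1) z u + q * qi q D * opT q x (La q N x (D + 2)) z u) := by
  unfold opR opT
  by_cases hz : z < N
  swap
  · have hz' : N ≤ z := by omega
    simp [Kf, hx z hz', La_out q N x hx _ z hz']
  by_cases hu : u < N
  swap
  · have hu' : N ≤ u := by omega
    simp [Kf, hx u hu']
  simp only [Kf_eq q N x D]
  have h1 : ∑ w ∈ range N, wt q 1 w u * (x z * La q N (yz q x z) (D + 1) w)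
      = x z * ∑ w ∈ range N, wt q 1 w u * La q N (yz q x z) (D + 1) w := by
    rw [Finset.mul_sum]; apply Finset.sum_congr rfl; intro w _; ring
  have h2 := sum3 q N (yz q x z) (yz_out q N x hx z) (D + 1) u hu
  have h3 : (q - 1) * (q * qi q D) = q ^ (D + 1) - q := by
    rw [mul_left_comm, qi_mul]; ring
  have h4 : (q - 1) * (wt q 1 z u * x u * (x z * ∑ w ∈ range N, wt q 1 w u
      * La q N (yz q x z) (D + 1) w)) = wt q 1 z u * x u * x z * ((q ^ (D + 1) - q)
        * el N (yz q x z) (D + 1) + (q - 1) * be q N (yz q x z) (D + 1) u) := by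
    rw [← h2]; ring
  rw [h1, h4, el_yz q N x _ z hz, be_yz_symm q N x _ z u]
  unfold Kf
  have h5 : (q - 1) * (wt q 1 z u * x z * x u * be q N (yz q x u) (D + 1) z
      + q * qi q D * (wt q 1 z u * x u * La q N x (D + 2) z))
      = (q - 1) * (wt q 1 z u * x z * x u * be q N (yz q x u) (D + 1) z)
      + (q - 1) * (q * qi q D) * (wt q 1 z u * x u * La q N x (D + 2) z) := by ring
  rw [h5, h3]
  simp only [La]
  ring

end basic

section final
variable {q : R} {N : ℕ} {x : ℕ → R}

/-- `q - 1` is a non zero divisor -/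
def Reg (q : R) : Prop := ∀ a b : R, (q - 1) * a = (q - 1) * b → a = b

theorem rho_La (hq : Reg q) (hx : ∀ s, N ≤ s → x s = 0) (b : ℕ) :
    ∑ z ∈ range N, La q N x b z = qi q b * el N x b :=
  hq _ _ (rho_aux q N x hx b)

theorem P_K (hq : Reg q) (hx : ∀ s, N ≤ s → x s = 0) (D : ℕ) :
    opP N (Kf q N x D) = fun z => qi q (D + 1) * La q N x (D + 2) z :=
  funext fun z => hq _ _ (P_K_aux q N x hx D z)

theorem R_K (hq : Reg q) (hx : ∀ s, N ≤ s → x s = 0) (D : ℕ) :
    opR q N x (Kf q N x D)
      = fun z u => Kf q N x (D + 1) z u + q * qi q D * opT q x (La q N x (D + 2)) z u :=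
  funext fun z => funext fun u => hq _ _ (R_K_aux q N x hx D z u)

theorem P_G (hq : Reg q) (hx : ∀ s, N ≤ s → x s = 0) (K D : ℕ) (hK : 1 ≤ K) (hD : K + 2 ≤ D) :
    opP N (Gf q N x K D) = fun z => qi q K * La q N x D z
        + (∑ j ∈ range ((K + 1) / 2), q ^ (K - j) * qi q (D - 1 - K + j) * el N x (D - 1 - j)
            * La q N x (j + 1) z)
        + ∑ i ∈ range (K / 2), q ^ (i + 1) * qi q (K - 1 - i) * el N x (i + 1)
            * La q N x (D - 1 - i) z :=
  funext fun z => hq _ _ (P_G_aux q N x hx K D z hK hD)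

theorem R_G (hq : Reg q) (hx : ∀ s, N ≤ s → x s = 0) (K D : ℕ) (hK : 1 ≤ K) (hD : K + 2 ≤ D) :
    opR q N x (Gf q N x K D)
      = fun z u => Gf q N x (K + 1) (D + 1) z u + opT q x (corr q N x K D) z u :=
  funext fun z => funext fun u => hq _ _ (R_G_aux q N x hx K D z u hK hD)

end final

end Vale.Agent.P066
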