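import Vale.Agent.P066.Cone

namespace Vale.Agent.P066

open Finset Polynomial

/-- weight of a colouring of the first `m` vertices -/
noncomputable def W (N : ℕ) (h : ℕ → ℕ) (m : ℕ) (f : Fin m → Fin N) : RN N :=
  ∏ b : Fin m, (xN N (f b) * ∏ a : Fin m,
    if a < b ∧ (b : ℕ) ≤ h a then wt (qN N) 1 (f a : ℕ) (f b : ℕ) else 1)

lemma W_snoc (N : ℕ) (h : ℕ → ℕ) (m : ℕ) (f : Fin m → Fin N) (u : Fin N) :
    W N h (m + 1) (Fin.snoc (α := fun _ => Fin N) f u)
      = W N h m f * (xN N u * ∏ a : Fin m, if m ≤ h a then wt (qN N) 1 (f a : ℕ) (u : ℕ) else 1) := by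
  unfold W
  rw [Fin.prod_univ_castSucc]
  congr 1
  · apply Finset.prod_congr rfl
    intro b _
    rw [Fin.prod_univ_castSucc]
    simp only [Fin.snoc_castSucc, Fin.snoc_last, Fin.val_castSucc, Fin.castSucc_lt_castSucc_iff,
      Fin.val_last]
    rw [if_neg (by
      intro h'
      have := h'.1
      exact absurd this (not_lt.2 (Fin.le_last _))), mul_one]
  · rw [Fin.prod_univ_castSucc]
    simp only [Fin.snoc_castSucc, Fin.snoc_last, Fin.val_castSucc, Fin.val_last]
    rw [if_neg (by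
      intro h'
      exact lt_irrefl _ h'.1), mul_one]
    congr 1
    apply Finset.prod_congr rfl
    intro a _
    simp only [Fin.castSucc_lt_last, true_and]

lemma sum_snoc {M : Type*} [AddCommMonoid M] (N m : ℕ) (Φ : (Fin (m + 1) → Fin N) → M) :
    ∑ f : Fin (m + 1) → Fin N, Φ f
      = ∑ f : Fin m → Fin N, ∑ u : Fin N, Φ (Fin.snoc (α := fun _ => Fin N) f u) := by
  rw [← (Fin.snocEquiv (fun _ : Fin (m + 1) => Fin N)).sum_comp, Fintype.sum_prod_type,
    Finset.sum_comm]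
  rfl

/-- partition function -/
noncomputable def Z0 (h : ℕ → ℕ) (m : ℕ) : Fam0 := fun N => ∑ f : Fin m → Fin N, W N h m f

noncomputable def F1 (h : ℕ → ℕ) (m : ℕ) : Fam1 := fun N z =>
  ∑ f : Fin (m + 1) → Fin N, W N h (m + 1) f * (if (f (Fin.last m) : ℕ) = z then 1 else 0)

noncomputable def F2 (h : ℕ → ℕ) (m : ℕ) : Fam2 := fun N w z =>
  ∑ f : Fin (m + 2) → Fin N, W N h (m + 2) f *
    (if (f (Fin.last m).castSucc : ℕ) = w ∧ (f (Fin.last (m + 1)) : ℕ) = z then 1 else 0)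

lemma Z0_succ (h : ℕ → ℕ) (m : ℕ) :
    Z0 h (m + 1) = fun N => ∑ z ∈ range N, F1 h m N z := by
  funext N
  unfold Z0 F1
  rw [Finset.sum_comm]
  apply Finset.sum_congr rfl
  intro f _
  rw [← Finset.mul_sum, Finset.sum_ite_eq, if_pos (by simp), mul_one]

lemma F1_succ (h : ℕ → ℕ) (m : ℕ) :
    F1 h (m + 1) = fun N => opP N (F2 h m N) := by
  funext N z
  unfold F1 F2 opP
  rw [Finset.sum_comm]
  apply Finset.sum_congr rfl
  intro f _
  rw [← Finset.mul_sum]
  congr 1
  by_cases hz : (f (Fin.last (m + 1)) : ℕ) = z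
  · simp only [hz, and_true]
    rw [Finset.sum_ite_eq]; simp
  · simp only [hz, and_false]; simp

lemma F1_eq (h : ℕ → ℕ) (m N z : ℕ) :
    F1 h m N z = xN N z * ∑ f : Fin m → Fin N, W N h m f *
      ∏ a : Fin m, if m ≤ h a then wt (qN N) 1 (f a : ℕ) z else 1 := by
  unfold F1
  rw [sum_snoc, Finset.mul_sum]
  apply Finset.sum_congr rfl
  intro f _
  simp only [W_snoc, Fin.snoc_last]
  by_cases hz : z < N
  · rw [Finset.sum_eq_single (⟨z, hz⟩ : Fin N)]
    · simp only [if_true]; ring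
    · intro u _ hu
      rw [if_neg (by
        intro h'; apply hu; ext; exact h'), mul_zero]
    · intro h'; exact absurd (Finset.mem_univ _) h'
  · rw [xN_out N z (by omega), zero_mul]
    apply Finset.sum_eq_zero
    intro u _
    rw [if_neg (by
        intro h'; have := u.2; omega), mul_zero]

lemma F2_eq (h : ℕ → ℕ) (m N w z : ℕ) :
    F2 h m N w z = xN N z * ∑ f : Fin (m + 1) → Fin N, W N h (m + 1) f *
      (if (f (Fin.last m) : ℕ) = w then 1 else 0) *
      ∏ a : Fin (m + 1), if m + 1 ≤ h a then wt (qN N) 1 (f a : ℕ) z else 1 := by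
  unfold F2
  rw [sum_snoc, Finset.mul_sum]
  apply Finset.sum_congr rfl
  intro f _
  simp only [W_snoc, Fin.snoc_last, Fin.snoc_castSucc]
  by_cases hz : z < N
  · rw [Finset.sum_eq_single (⟨z, hz⟩ : Fin N)]
    · simp only [and_true]; ring
    · intro u _ hu
      rw [if_neg (by
        intro h'; apply hu; ext; exact h'.2), mul_zero]
    · intro h'; exact absurd (Finset.mem_univ _) h'
  · rw [xN_out N z (by omega), zero_mul]
    apply Finset.sum_eq_zero
    intro u _
    rw [if_neg (by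
        intro h'; have := u.2; omega), mul_zero]

/-- no left neighbours -/
lemma F1_case0 (h : ℕ → ℕ) (m : ℕ) (hm : ∀ a < m, h a < m) :
    F1 h m = fun N z => Z0 h m N * La (qN N) N (xN N) 1 z := by
  funext N z
  rw [F1_eq, La_one, mul_comm]
  congr 1
  unfold Z0
  apply Finset.sum_congr rfl
  intro f _
  rw [Finset.prod_eq_one, mul_one]
  intro a _
  rw [if_neg]
  have := hm a a.2
  omega

/-- exactly one left neighbour -/
lemma F2_case1 (h : ℕ → ℕ) (m : ℕ) (hm : ∀ a < m, h a < m + 1) (hm1 : m + 1 ≤ h m) :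
    F2 h m = fun N => opT (qN N) (xN N) (F1 h m N) := by
  funext N w z
  rw [F2_eq]
  unfold opT F1
  rw [mul_comm (wt (qN N) 1 w z), mul_assoc]
  congr 1
  rw [Finset.mul_sum]
  apply Finset.sum_congr rfl
  intro f _
  rw [Fin.prod_univ_castSucc, Finset.prod_eq_one]
  · simp only [Fin.val_last, if_pos hm1, one_mul]
    by_cases hw : (f (Fin.last m) : ℕ) = w
    · simp only [hw, if_true]; ring
    · simp only [hw, if_false]; ring
  · intro a _
    rw [if_neg]
    have := hm a a.2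
    simp only [Fin.val_castSucc]
    omega

/-- exactly two left neighbours -/
lemma F2_case2 (h : ℕ → ℕ) (m : ℕ) (hm : ∀ a < m, h a < m + 2) (hm1 : m + 2 ≤ h m)
    (hm2 : m + 2 ≤ h (m + 1)) :
    F2 h (m + 1) = fun N => opR (qN N) N (xN N) (F2 h m N) := by
  funext N z u
  rw [F2_eq]
  unfold opR F2
  rw [mul_comm (wt (qN N) 1 z u), mul_assoc]
  congr 1
  have h1 : ∑ w ∈ range N, wt (qN N) 1 w u * ∑ f : Fin (m + 2) → Fin N, W N h (m + 2) f *
        (if (f (Fin.last m).castSucc : ℕ) = w ∧ (f (Fin.last (m + 1)) : ℕ) = z then 1 else 0)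
      = ∑ f : Fin (m + 2) → Fin N, W N h (m + 2) f * (wt (qN N) 1 (f (Fin.last m).castSucc : ℕ) u
        * (if (f (Fin.last (m + 1)) : ℕ) = z then 1 else 0)) := by
    simp only [Finset.mul_sum]
    rw [Finset.sum_comm]
    apply Finset.sum_congr rfl
    intro f _
    rw [Finset.sum_eq_single ((f (Fin.last m).castSucc : ℕ))]
    · simp only [true_and]; ring
    · intro b _ hb
      rw [if_neg (by intro h'; exact hb h'.1.symm)]; ring
    · intro h'
      exact absurd (Finset.mem_range.2 (f (Fin.last m).castSucc).2) h'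
  rw [h1, Finset.mul_sum]
  apply Finset.sum_congr rfl
  intro f _
  rw [Fin.prod_univ_castSucc, Fin.prod_univ_castSucc, Finset.prod_eq_one]
  · simp only [Fin.val_last, Fin.val_castSucc, if_pos hm1, if_pos hm2, one_mul]
    by_cases hw : (f (Fin.last (m + 1)) : ℕ) = z
    · simp only [hw, if_true]; ring
    · simp only [hw, if_false]; ring
  · intro a _
    rw [if_neg]
    have := hm a a.2
    simp only [Fin.val_castSucc]
    omega

lemma Z0_zero (h : ℕ → ℕ) : Z0 h 0 = 1 := by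
  funext N
  simp [Z0, W]

/-- main induction -/
theorem main_induction (h : ℕ → ℕ) (hmono : Monotone h)
    (h3 : ∀ i, h i ≤ i + 2) :
    ∀ m, Z0 h m ∈ E ∧ (Z0 h (m + 1) ∈ E ∧ F1 h m ∈ C1) ∧
      (F1 h (m + 1) ∈ C1 ∧ (m + 1 ≤ h m → F2 h m ∈ C2)) := by
  intro m
  have base : Z0 h 0 ∈ E := by rw [Z0_zero]; exact one_mem E
  have case0 : ∀ m, Z0 h m ∈ E → (∀ a < m, h a < m) → F1 h m ∈ C1 := by
    intro m hZ hm
    rw [F1_case0 h m hm]
    exact C1_gen _ hZ 1
  have fromF1 : ∀ m, F1 h m ∈ C1 → Z0 h (m + 1) ∈ E := by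
    intro m hF
    rw [Z0_succ]
    exact rho_mem _ hF
  have step1 : ∀ m, F1 h m ∈ C1 → m + 1 ≤ h m → (∀ a < m, h a < m + 1) → F2 h m ∈ C2 := by
    intro m hF hm1 hm
    rw [F2_case1 h m hm hm1]
    exact tau_mem _ hF
  have stepF1 : ∀ m, F2 h m ∈ C2 → F1 h (m + 1) ∈ C1 := by
    intro m hF
    rw [F1_succ]
    exact P_mem _ hF
  have noadj : ∀ m, F1 h m ∈ C1 → ¬ (m + 1 ≤ h m) → F1 h (m + 1) ∈ C1 := by
    intro m hF hm
    apply case0 _ (fromF1 m hF)
    intro a ha
    have h1 : h a ≤ h m := hmono (by omega)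
    omega
  induction m with
  | zero =>
    have hF0 : F1 h 0 ∈ C1 := case0 0 base (by intro a ha; omega)
    have hF2 : 0 + 1 ≤ h 0 → F2 h 0 ∈ C2 := fun h1 => step1 0 hF0 h1 (by intro a ha; omega)
    refine ⟨base, ⟨fromF1 0 hF0, hF0⟩, ?_, hF2⟩
    by_cases h1 : 0 + 1 ≤ h 0
    · exact stepF1 0 (hF2 h1)
    · exact noadj 0 hF0 h1
  | succ m ih =>
    obtain ⟨_, ⟨hZ, _⟩, hF1, hF2⟩ := ih
    have hF2' : m + 1 + 1 ≤ h (m + 1) → F2 h (m + 1) ∈ C2 := by
      intro h1
      by_cases h2 : m + 2 ≤ h m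
      · rw [F2_case2 h m _ h2 h1]
        · exact R_mem _ (hF2 (by omega))
        · intro a ha
          have := h3 a
          omega
      · apply step1 _ hF1 h1
        intro a ha
        have : h a ≤ h m := hmono (by omega)
        omega
    refine ⟨hZ, ⟨fromF1 _ hF1, hF1⟩, ?_, hF2'⟩
    by_cases h1 : m + 1 + 1 ≤ h (m + 1)
    · exact stepF1 _ (hF2' h1)
    · exact noadj _ hF1 h1

end Vale.Agent.P066
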