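import Vale.Agent.P066.Alg

namespace Vale.Agent.P066

open Finset Polynomial

/-- the coefficient ring in `N` variables -/
abbrev RN (N : ℕ) : Type := MvPolynomial (Fin N) ℤ[X]

/-- the variable `q` -/
noncomputable def qN (N : ℕ) : RN N := MvPolynomial.C (Polynomial.X : ℤ[X])

/-- the variables, extended by zero -/
noncomputable def xN (N : ℕ) (s : ℕ) : RN N :=
  if h : s < N then MvPolynomial.X ⟨s, h⟩ else 0

lemma xN_out (N s : ℕ) (h : N ≤ s) : xN N s = 0 := by
  unfold xN; rw [dif_neg (by omega)]

lemma reg_qN (N : ℕ) : Reg (qN N) := by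
  intro a b h
  have hne : (qN N - 1 : RN N) ≠ 0 := by
    unfold qN
    rw [← map_one (MvPolynomial.C : ℤ[X] →+* RN N), ← map_sub]
    intro h0
    rw [MvPolynomial.C_eq_zero] at h0
    have := congrArg (fun p => Polynomial.coeff p 1) h0
    simp [Polynomial.coeff_one] at this
  exact mul_left_cancel₀ hne h

lemma el_xN (N i : ℕ) : el N (xN N) i = MvPolynomial.esymm (Fin N) ℤ[X] i := by
  unfold el MvPolynomial.esymm
  rw [Finset.prod_range]
  have : ∀ s : Fin N, xN N s = MvPolynomial.X s := by
    intro s; unfold xN; rw [dif_pos s.2]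
  simp only [this]
  rw [Finset.prod_one_add, Polynomial.finsetSum_coeff]
  have h2 : ∀ t : Finset (Fin N), (∏ s ∈ t, (C (MvPolynomial.X s : RN N) * X : (RN N)[X])).coeff i
      = if t.card = i then ∏ s ∈ t, MvPolynomial.X s else 0 := by
    intro t
    rw [Finset.prod_mul_distrib, Finset.prod_const, ← map_prod, Polynomial.coeff_C_mul_X_pow]
    simp only [eq_comm]
  simp only [h2]
  rw [← Finset.sum_filter]
  apply Finset.sum_congr _ (fun _ _ => rfl)
  ext t
  simp [Finset.mem_powersetCard]

abbrev Fam0 : Type := (N : ℕ) → RN N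
abbrev Fam1 : Type := (N : ℕ) → ℕ → RN N
abbrev Fam2 : Type := (N : ℕ) → ℕ → ℕ → RN N

/-- generators of the positive cone -/
noncomputable def genE : Set Fam0 := {qN} ∪ Set.range (fun i => fun N => el N (xN N) i)

/-- polynomials in `q` and the `e_i` with nonnegative coefficients -/
noncomputable def E : Subsemiring Fam0 := Subsemiring.closure genE

lemma qN_mem : qN ∈ E := Subsemiring.subset_closure (Or.inl rfl)

lemma el_mem (i : ℕ) : (fun N => el N (xN N) i) ∈ E :=
  Subsemiring.subset_closure (Or.inr ⟨i, rfl⟩)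

lemma qi_mem (k : ℕ) : (fun N => qi (qN N) k) ∈ E := by
  have : (fun N => qi (qN N) k) = ∑ i ∈ range k, (qN : Fam0) ^ i := by
    funext N
    simp [qi, Finset.sum_apply]
  rw [this]
  exact sum_mem fun i _ => pow_mem qN_mem i

/-- the cone at level one -/
noncomputable def C1 : AddSubmonoid Fam1 :=
  AddSubmonoid.closure {f | ∃ c ∈ E, ∃ b, f = fun N z => c N * La (qN N) N (xN N) b z}

/-- the cone at level two -/
noncomputable def C2 : AddSubmonoid Fam2 :=
  AddSubmonoid.closure ({F | ∃ c ∈ E, ∃ D, F = fun N w z => c N * Kf (qN N) N (xN N) D w z} ∪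
    {F | ∃ c ∈ E, ∃ K D, 1 ≤ K ∧ K + 2 ≤ D ∧ F = fun N w z => c N * Gf (qN N) N (xN N) K D w z})

lemma C1_gen (c : Fam0) (hc : c ∈ E) (b : ℕ) :
    (fun N z => c N * La (qN N) N (xN N) b z : Fam1) ∈ C1 :=
  AddSubmonoid.subset_closure ⟨c, hc, b, rfl⟩

lemma C2_K (c : Fam0) (hc : c ∈ E) (D : ℕ) :
    (fun N w z => c N * Kf (qN N) N (xN N) D w z : Fam2) ∈ C2 :=
  AddSubmonoid.subset_closure (Or.inl ⟨c, hc, D, rfl⟩)

lemma C2_G (c : Fam0) (hc : c ∈ E) (K D : ℕ) (hK : 1 ≤ K) (hD : K + 2 ≤ D) :
    (fun N w z => c N * Gf (qN N) N (xN N) K D w z : Fam2) ∈ C2 :=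
  AddSubmonoid.subset_closure (Or.inr ⟨c, hc, K, D, hK, hD, rfl⟩)

lemma C1_smul (c : Fam0) (hc : c ∈ E) (f : Fam1) (hf : f ∈ C1) :
    (fun N z => c N * f N z : Fam1) ∈ C1 := by
  induction hf using AddSubmonoid.closure_induction with
  | mem f hf =>
    obtain ⟨d, hd, b, rfl⟩ := hf
    have := C1_gen (c * d) (mul_mem hc hd) b
    convert this using 3
    simp only [Pi.mul_apply]; ring
  | zero =>
    convert zero_mem C1 using 1
    funext N z; simp
  | add f g _ _ hf hg =>
    convert add_mem hf hg using 1
    funext N z; simp [mul_add]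

lemma C2_smul (c : Fam0) (hc : c ∈ E) (f : Fam2) (hf : f ∈ C2) :
    (fun N w z => c N * f N w z : Fam2) ∈ C2 := by
  induction hf using AddSubmonoid.closure_induction with
  | mem f hf =>
    rcases hf with ⟨d, hd, D, rfl⟩ | ⟨d, hd, K, D, hK, hD, rfl⟩
    · have := C2_K (c * d) (mul_mem hc hd) D
      convert this using 4
      simp only [Pi.mul_apply]; ring
    · have := C2_G (c * d) (mul_mem hc hd) K D hK hD
      convert this using 4
      simp only [Pi.mul_apply]; ring
  | zero =>
    convert zero_mem C2 using 1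
    funext N w z; simp
  | add f g _ _ hf hg =>
    convert add_mem hf hg using 1
    funext N w z; simp [mul_add]

/-- `ρ` maps the level one cone to the level zero cone -/
lemma rho_mem (f : Fam1) (hf : f ∈ C1) : (fun N => ∑ z ∈ range N, f N z : Fam0) ∈ E := by
  induction hf using AddSubmonoid.closure_induction with
  | mem f hf =>
    obtain ⟨c, hc, b, rfl⟩ := hf
    have := mul_mem hc (mul_mem (qi_mem b) (el_mem b))
    convert this using 1
    funext N
    simp only [Pi.mul_apply]
    rw [← Finset.mul_sum, rho_La (reg_qN N) (xN_out N)]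
  | zero =>
    convert zero_mem E using 1
    funext N; simp
  | add f g _ _ hf hg =>
    convert add_mem hf hg using 1
    funext N; simp [Finset.sum_add_distrib]

/-- `τ` maps the level one cone to the level two cone -/
lemma tau_mem (f : Fam1) (hf : f ∈ C1) : (fun N => opT (qN N) (xN N) (f N) : Fam2) ∈ C2 := by
  induction hf using AddSubmonoid.closure_induction with
  | mem f hf =>
    obtain ⟨c, hc, b, rfl⟩ := hf
    rcases b with _ | _ | b
    · convert zero_mem C2 using 1
      funext N w z
      simp [opT, La]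
    · convert C2_K c hc 0 using 1
      funext N w z
      have := congrFun (congrFun (opT_one (qN N) N (xN N)) w) z
      rw [← this]
      simp only [opT]; ring
    · convert C2_G c hc 1 (b + 1 + 1 + 1) le_rfl (by omega) using 1
      funext N w z
      have := congrFun (congrFun (opT_succ (qN N) N (xN N) (b + 1 + 1)) w) z
      rw [← this]
      simp only [opT]; ring
  | zero =>
    convert zero_mem C2 using 1
    funext N w z; simp [opT]
  | add f g _ _ hf hg =>
    convert add_mem hf hg using 1
    funext N w z; simp [opT, mul_add]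

/-- `P` maps the level two cone to the level one cone -/
lemma P_mem (F : Fam2) (hF : F ∈ C2) : (fun N => opP N (F N) : Fam1) ∈ C1 := by
  induction hF using AddSubmonoid.closure_induction with
  | mem f hf =>
    rcases hf with ⟨c, hc, D, rfl⟩ | ⟨c, hc, K, D, hK, hD, rfl⟩
    · convert C1_gen (c * (fun N => qi (qN N) (D + 1))) (mul_mem hc (qi_mem _)) (D + 2) using 1
      funext N z
      have h1 := congrFun (P_K (reg_qN N) (xN_out N) D) z
      simp only [Pi.mul_apply]
      rw [mul_assoc, ← h1]
      unfold opP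
      rw [Finset.mul_sum]
    · have key : (fun N z => c N * (qi (qN N) K * La (qN N) N (xN N) D z
        + (∑ j ∈ range ((K + 1) / 2), (qN N) ^ (K - j) * qi (qN N) (D - 1 - K + j)
            * el N (xN N) (D - 1 - j) * La (qN N) N (xN N) (j + 1) z)
        + ∑ i ∈ range (K / 2), (qN N) ^ (i + 1) * qi (qN N) (K - 1 - i) * el N (xN N) (i + 1)
            * La (qN N) N (xN N) (D - 1 - i) z) : Fam1) ∈ C1 := by
        apply C1_smul c hc
        have e1 := C1_gen (fun N => qi (qN N) K) (qi_mem K) D
        have e2 : (∑ j ∈ range ((K + 1) / 2), (fun N z => ((qN N) ^ (K - j)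
            * qi (qN N) (D - 1 - K + j) * el N (xN N) (D - 1 - j)) * La (qN N) N (xN N) (j + 1) z :
              Fam1)) ∈ C1 := by
          apply sum_mem
          intro j _
          exact C1_gen ((qN : Fam0) ^ (K - j) * (fun N => qi (qN N) (D - 1 - K + j))
            * (fun N => el N (xN N) (D - 1 - j)))
            (mul_mem (mul_mem (pow_mem qN_mem _) (qi_mem _)) (el_mem _)) (j + 1)
        have e3 : (∑ i ∈ range (K / 2), (fun N z => ((qN N) ^ (i + 1)
            * qi (qN N) (K - 1 - i) * el N (xN N) (i + 1)) * La (qN N) N (xN N) (D - 1 - i) z :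
              Fam1)) ∈ C1 := by
          apply sum_mem
          intro i _
          exact C1_gen ((qN : Fam0) ^ (i + 1) * (fun N => qi (qN N) (K - 1 - i))
            * (fun N => el N (xN N) (i + 1)))
            (mul_mem (mul_mem (pow_mem qN_mem _) (qi_mem _)) (el_mem _)) (D - 1 - i)
        convert add_mem (add_mem e1 e2) e3 using 1
        funext N z
        simp only [Pi.add_apply, Finset.sum_apply]
      convert key using 1
      funext N z
      have h1 := congrFun (P_G (reg_qN N) (xN_out N) K D hK hD) z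
      rw [← h1]
      unfold opP
      rw [Finset.mul_sum]
  | zero =>
    convert zero_mem C1 using 1
    funext N z; simp [opP]
  | add f g _ _ hf hg =>
    convert add_mem hf hg using 1
    funext N z; simp [opP, Finset.sum_add_distrib]

lemma corr_mem (K D : ℕ) : (fun N z => corr (qN N) N (xN N) K D z : Fam1) ∈ C1 := by
  have e1 := C1_gen ((qN : Fam0) * (fun N => qi (qN N) (K - 1))) (mul_mem qN_mem (qi_mem _)) D
  have e2 : (∑ j ∈ range ((K + 1) / 2), (fun N z => ((qN N) ^ (K + 1 - j)
      * qi (qN N) (D - 2 - K + j) * el N (xN N) (D - 1 - j)) * La (qN N) N (xN N) (j + 1) z :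
        Fam1)) ∈ C1 := by
    apply sum_mem
    intro j _
    exact C1_gen ((qN : Fam0) ^ (K + 1 - j) * (fun N => qi (qN N) (D - 2 - K + j))
      * (fun N => el N (xN N) (D - 1 - j)))
      (mul_mem (mul_mem (pow_mem qN_mem _) (qi_mem _)) (el_mem _)) (j + 1)
  have e3 : (∑ i ∈ range (K / 2), (fun N z => ((qN N) ^ (i + 2)
      * qi (qN N) (K - 2 - i) * el N (xN N) (i + 1)) * La (qN N) N (xN N) (D - 1 - i) z :
        Fam1)) ∈ C1 := by
    apply sum_mem
    intro i _
    exact C1_gen ((qN : Fam0) ^ (i + 2) * (fun N => qi (qN N) (K - 2 - i))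
      * (fun N => el N (xN N) (i + 1)))
      (mul_mem (mul_mem (pow_mem qN_mem _) (qi_mem _)) (el_mem _)) (D - 1 - i)
  convert add_mem (add_mem e1 e2) e3 using 1
  funext N z
  simp only [Pi.add_apply, Finset.sum_apply, corr, Pi.mul_apply]

/-- `R` maps the level two cone to itself -/
lemma R_mem (F : Fam2) (hF : F ∈ C2) : (fun N => opR (qN N) N (xN N) (F N) : Fam2) ∈ C2 := by
  induction hF using AddSubmonoid.closure_induction with
  | mem f hf =>
    rcases hf with ⟨c, hc, D, rfl⟩ | ⟨c, hc, K, D, hK, hD, rfl⟩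
    · have e1 := C2_K c hc (D + 1)
      have e2 := C2_smul (c * (qN * (fun N => qi (qN N) D))) (mul_mem hc (mul_mem qN_mem (qi_mem D)))
        _ (tau_mem _ (C1_gen 1 (one_mem E) (D + 2)))
      convert add_mem e1 e2 using 1
      funext N w z
      have h1 := congrFun (congrFun (R_K (reg_qN N) (xN_out N) D) w) z
      have h2 : opR (qN N) N (xN N) (fun w z => c N * Kf (qN N) N (xN N) D w z) w z
          = c N * opR (qN N) N (xN N) (Kf (qN N) N (xN N) D) w z := by
        unfold opR
        simp only [Finset.mul_sum]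
        apply Finset.sum_congr rfl; intro v _; ring
      rw [h2, h1]
      simp only [Pi.add_apply, Pi.mul_apply, Pi.one_apply, opT]
      ring
    · have e1 := C2_G c hc (K + 1) (D + 1) (by omega) (by omega)
      have e2 := C2_smul c hc _ (tau_mem _ (corr_mem K D))
      convert add_mem e1 e2 using 1
      funext N w z
      have h1 := congrFun (congrFun (R_G (reg_qN N) (xN_out N) K D hK hD) w) z
      have h2 : opR (qN N) N (xN N) (fun w z => c N * Gf (qN N) N (xN N) K D w z) w z
          = c N * opR (qN N) N (xN N) (Gf (qN N) N (xN N) K D) w z := by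
        unfold opR
        simp only [Finset.mul_sum]
        apply Finset.sum_congr rfl; intro v _; ring
      rw [h2, h1]
      simp only [Pi.add_apply, opT]
      ring
  | zero =>
    convert zero_mem C2 using 1
    funext N w z; simp [opR]
  | add f g _ _ hf hg =>
    convert add_mem hf hg using 1
    funext N w z; simp [opR, mul_add, Finset.sum_add_distrib]

end Vale.Agent.P066
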