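import Vale.Agent.P066.Cone

namespace Vale.Agent.P066

open Finset Polynomial

/-- monomials in `q` and the `e_i` -/
lemma mon_form (m : Fam0) (hm : m ∈ Submonoid.closure genE) :
    ∃ (k : ℕ) (p : Multiset ℕ), m = fun N => (MvPolynomial.C (X ^ k) : RN N)
      * (p.map (MvPolynomial.esymm (Fin N) ℤ[X])).prod := by
  induction hm using Submonoid.closure_induction with
  | mem x hx =>
    rcases hx with hx | ⟨i, rfl⟩
    · refine ⟨1, 0, ?_⟩
      rw [Set.mem_singleton_iff] at hx
      rw [hx]
      funext N
      simp [qN]
    · refine ⟨0, {i}, ?_⟩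
      funext N
      simp [el_xN]
  | one => exact ⟨0, 0, by funext N; simp⟩
  | mul x y _ _ hx hy =>
    obtain ⟨k, p, rfl⟩ := hx
    obtain ⟨l, r, rfl⟩ := hy
    refine ⟨k + l, p + r, ?_⟩
    funext N
    simp only [Pi.mul_apply, pow_add, map_mul, Multiset.map_add, Multiset.prod_add]
    ring

lemma prod_esymm_homog (N : ℕ) (p : Multiset ℕ) :
    ((p.map (MvPolynomial.esymm (Fin N) ℤ[X])).prod).IsHomogeneous p.sum := by
  induction p using Multiset.induction_on with
  | empty => simpa using MvPolynomial.isHomogeneous_one (Fin N) ℤ[X]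
  | cons a p ih =>
    rw [Multiset.map_cons, Multiset.prod_cons, Multiset.sum_cons]
    refine MvPolynomial.IsHomogeneous.mul ?_ ih
    unfold MvPolynomial.esymm
    apply MvPolynomial.IsHomogeneous.sum
    intro t ht
    have hc := (Finset.mem_powersetCard.1 ht).2
    rw [← hc, Finset.card_eq_sum_ones]
    apply MvPolynomial.IsHomogeneous.prod
    intro i _
    exact MvPolynomial.isHomogeneous_X _ _

lemma prod_esymm_filter (N : ℕ) (p : Multiset ℕ) :
    ((p.filter (· ≠ 0)).map (MvPolynomial.esymm (Fin N) ℤ[X])).prod
      = (p.map (MvPolynomial.esymm (Fin N) ℤ[X])).prod := by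
  induction p using Multiset.induction_on with
  | empty => simp
  | cons a p ih =>
    by_cases ha : a = 0
    · subst ha
      simp only [ne_eq, not_true_eq_false, not_false_eq_true, Multiset.filter_cons_of_neg,
        Multiset.map_cons, Multiset.prod_cons, MvPolynomial.esymm_zero, one_mul]
      exact ih
    · rw [Multiset.filter_cons_of_pos (p := (· ≠ 0)) _ ha, Multiset.map_cons, Multiset.map_cons,
        Multiset.prod_cons, Multiset.prod_cons, ih]

theorem extract (F : Fam0) (hF : F ∈ E) (n : ℕ) :
    ∃ c : n.Partition → ℤ[X], (∀ μ k, 0 ≤ (c μ).coeff k) ∧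
      ∀ N, MvPolynomial.homogeneousComponent n (F N)
        = ∑ μ : n.Partition, MvPolynomial.C (c μ) * MvPolynomial.esymmPart (Fin N) ℤ[X] μ := by
  unfold E at hF
  rw [Subsemiring.mem_closure_iff] at hF
  induction hF using AddSubmonoid.closure_induction with
  | mem F hF =>
    obtain ⟨k, p, rfl⟩ := mon_form F hF
    by_cases hp : p.sum = n
    · classical
      refine ⟨Pi.single (Nat.Partition.ofSums n p hp) (X ^ k), ?_, ?_⟩
      · intro μ j
        by_cases hμ : μ = Nat.Partition.ofSums n p hp
        · subst hμ
          rw [Pi.single_eq_same, Polynomial.coeff_X_pow]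
          split_ifs <;> norm_num
        · rw [Pi.single_eq_of_ne hμ]; simp
      · intro N
        rw [Finset.sum_eq_single (Nat.Partition.ofSums n p hp)]
        · rw [Pi.single_eq_same]
          have h1 : MvPolynomial.esymmPart (Fin N) ℤ[X] (Nat.Partition.ofSums n p hp)
              = (p.map (MvPolynomial.esymm (Fin N) ℤ[X])).prod := by
            unfold MvPolynomial.esymmPart
            exact prod_esymm_filter N p
          rw [h1, MvPolynomial.homogeneousComponent_C_mul]
          congr 1
          have h2 := prod_esymm_homog N p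
          rw [hp] at h2
          exact MvPolynomial.homogeneousComponent_of_mem h2 |>.trans (if_pos rfl)
        · intro μ _ hμ
          rw [Pi.single_eq_of_ne hμ]; simp
        · intro h'; exact absurd (Finset.mem_univ _) h'
    · refine ⟨0, by simp, ?_⟩
      intro N
      rw [MvPolynomial.homogeneousComponent_C_mul,
        MvPolynomial.homogeneousComponent_of_mem (prod_esymm_homog N p), if_neg (Ne.symm hp)]
      simp
  | zero => exact ⟨0, by simp, by intro N; simp⟩
  | add F G _ _ hF hG =>
    obtain ⟨c, hc, hc'⟩ := hF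
    obtain ⟨d, hd, hd'⟩ := hG
    refine ⟨c + d, ?_, ?_⟩
    · intro μ k
      rw [Pi.add_apply, Polynomial.coeff_add]
      exact add_nonneg (hc μ k) (hd μ k)
    · intro N
      simp only [Pi.add_apply, map_add, hc' N, hd' N, add_mul, Finset.sum_add_distrib]

end Vale.Agent.P066
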