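import Mathlib

namespace Vale.Agent.P066

open Finset Polynomial

/-- multiplicity vector of a partition -/
noncomputable def mvec (m : ℕ) {n : ℕ} (μ : n.Partition) : Fin m →₀ ℕ :=
  Finsupp.equivFunOnFinite.symm (fun i => μ.parts.count ((i : ℕ) + 1))

lemma prod_esymm_count (m : ℕ) (p : Multiset ℕ) (hp : ∀ i ∈ p, i ≠ 0 ∧ i ≤ m)
    (f : ℕ → MvPolynomial (Fin m) ℤ[X]) :
    (p.map f).prod = ∏ i : Fin m, f ((i : ℕ) + 1) ^ (p.count ((i : ℕ) + 1)) := by
  rw [Finset.prod_multiset_map_count]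
  have h1 : ∏ i : Fin m, f ((i : ℕ) + 1) ^ (p.count ((i : ℕ) + 1))
      = ∏ i ∈ (range m).map ⟨fun i => i + 1, fun a b h => by simpa using h⟩,
        f i ^ (p.count i) := by
    rw [Finset.prod_map, Finset.prod_range]
    rfl
  rw [h1]
  apply Finset.prod_subset
  · intro i hi
    rw [Multiset.mem_toFinset] at hi
    obtain ⟨h0, hm⟩ := hp i hi
    rw [Finset.mem_map]
    refine ⟨i - 1, Finset.mem_range.2 (by omega), ?_⟩
    show i - 1 + 1 = i
    omega
  · intro i _ hi
    rw [Multiset.mem_toFinset] at hi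
    rw [Multiset.count_eq_zero_of_notMem hi, pow_zero]

lemma esymmPart_big (m : ℕ) {n : ℕ} (μ : n.Partition) (h : ¬ ∀ i ∈ μ.parts, i ≤ m) :
    MvPolynomial.esymmPart (Fin m) ℤ[X] μ = 0 := by
  push Not at h
  obtain ⟨i, hi, hm⟩ := h
  unfold MvPolynomial.esymmPart
  apply Multiset.prod_eq_zero
  rw [Multiset.mem_map]
  refine ⟨i, hi, ?_⟩
  unfold MvPolynomial.esymm
  rw [Finset.powersetCard_eq_empty.2 (by simpa using hm), Finset.sum_empty]

theorem uniq (m n : ℕ) (c : n.Partition → ℤ[X])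
    (hc : ∑ μ : n.Partition, MvPolynomial.C (c μ) * MvPolynomial.esymmPart (Fin m) ℤ[X] μ = 0)
    (μ : n.Partition) (hμ : ∀ i ∈ μ.parts, i ≤ m) : c μ = 0 := by
  classical
  have hinj : ∀ μ ν : n.Partition, (∀ i ∈ μ.parts, i ≤ m) → (∀ i ∈ ν.parts, i ≤ m) →
      mvec m μ = mvec m ν → μ = ν := by
    intro μ ν h1 h2 h
    apply Nat.Partition.ext
    apply Multiset.ext.2
    intro i
    by_cases hi : i ≠ 0 ∧ i ≤ m
    · have := DFunLike.congr_fun h ⟨i - 1, by omega⟩
      simp only [mvec, Finsupp.equivFunOnFinite_symm_apply_apply] at this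
      rwa [show i - 1 + 1 = i by omega] at this
    · rw [Multiset.count_eq_zero_of_notMem, Multiset.count_eq_zero_of_notMem]
      · intro h'
        exact hi ⟨(ν.parts_pos h').ne', h2 i h'⟩
      · intro h'
        exact hi ⟨(μ.parts_pos h').ne', h1 i h'⟩
  set S := (Finset.univ : Finset n.Partition).filter (fun μ => ∀ i ∈ μ.parts, i ≤ m) with hS
  have h1 : ∀ ν ∈ S, MvPolynomial.C (c ν) * MvPolynomial.esymmPart (Fin m) ℤ[X] ν
      = (MvPolynomial.esymmAlgHom (Fin m) ℤ[X] m (MvPolynomial.monomial (mvec m ν) (c ν))).val := by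
    intro ν hν
    have hν' := (Finset.mem_filter.1 hν).2
    rw [MvPolynomial.esymmAlgHom_apply, MvPolynomial.aeval_monomial, MvPolynomial.algebraMap_eq]
    congr 1
    unfold MvPolynomial.esymmPart
    rw [prod_esymm_count m ν.parts (fun i hi => ⟨(ν.parts_pos hi).ne', hν' i hi⟩)]
    rw [Finsupp.prod_fintype _ _ (by intro i; simp)]
    apply Finset.prod_congr rfl
    intro i _
    simp [mvec]
  have h2 : ∑ ν ∈ S, MvPolynomial.C (c ν) * MvPolynomial.esymmPart (Fin m) ℤ[X] ν = 0 := by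
    rw [← hc]
    apply Finset.sum_subset (Finset.filter_subset _ _)
    intro ν _ hν
    rw [esymmPart_big m ν (by
      intro h'; exact hν (Finset.mem_filter.2 ⟨Finset.mem_univ _, h'⟩)), mul_zero]
  rw [Finset.sum_congr rfl h1] at h2
  have h3 : MvPolynomial.esymmAlgHom (Fin m) ℤ[X] m
      (∑ ν ∈ S, MvPolynomial.monomial (mvec m ν) (c ν)) = 0 := by
    apply Subtype.ext
    rw [map_sum, AddSubmonoidClass.coe_finsetSum]
    exact h2
  have h4 := (injective_iff_map_eq_zero _).1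
    (MvPolynomial.esymmAlgHom_fin_injective ℤ[X] (le_refl m)) _ h3
  have h5 := congrArg (MvPolynomial.coeff (mvec m μ)) h4
  rw [MvPolynomial.coeff_sum] at h5
  simp only [MvPolynomial.coeff_monomial, MvPolynomial.coeff_zero] at h5
  rw [Finset.sum_eq_single μ] at h5
  · simpa using h5
  · intro ν hν hne
    rw [if_neg]
    intro h'
    exact hne (hinj ν μ (Finset.mem_filter.1 hν).2 hμ h')
  · intro h'
    exact absurd (Finset.mem_filter.2 ⟨Finset.mem_univ _, hμ⟩) h'

end Vale.Agent.P066
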